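import Vale.Agent.P032.S5.H360.Silent
import Vale.Agent.P032.S5.H394.Ends

/-!
# P032: rule (N) for a colour in no letter

`Fill U T z x i` : two antipodal persistent palettes of `S(z)` together with `{x, i}` exhaust `T z`.
`Irr.exists_N` : if every point of `S(z)` with the colour `x` in its palette has exactly three colours,
then there is a colour `i ≠ x` without `Fill U T z x i`.
-/

open Set Filter Topology Metric

noncomputable section

namespace Vale.Agent.P032.Six

variable {k : ℕ} {U : Fin k → Set ℂ} {T : ℂ → Set (Fin k)}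

/-- two antipodal persistent palettes together with `{x, i}` exhaust `T z` -/
def Fill (U : Fin k → Set ℂ) (T : ℂ → Set (Fin k)) (z : ℂ) (x i : Fin k) : Prop :=
  ∃ (y1 y2 : ℂ) (P1 P2 : Set (Fin k)), dist y1 z = 1 ∧ y1 + y2 = 2 * z ∧
    (∀ᶠ q in 𝓝[sphere z 1] y1, P1 ⊆ Pal U q) ∧ (∀ᶠ q in 𝓝[sphere z 1] y2, P2 ⊆ Pal U q) ∧
    T z ⊆ P1 ∪ P2 ∪ {x, i}

/-- the line of a `Fill` can be moved off the direction of a given point -/
theorem Irr.fill_line (h : Irr U T) {z y0 : ℂ} {x i : Fin k} (hy0 : dist y0 z = 1)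
    (hF : Fill U T z x i) : ∃ n : ℂ, ‖n‖ = 1 ∧ dt360 (Complex.I * n) (z - y0) ≠ 0 ∧
      ∀ᶠ t : ℝ in 𝓝 0, t ≠ 0 → T (z + t * (Complex.I * n)) ⊆ {x, i} := by
  obtain ⟨y1, y2, P1, P2, hy1, hy2, hJ1, hJ2, hK⟩ := hF
  by_cases hd : dt360 (Complex.I * (y1 - z)) (z - y0) = 0
  · set n : ℂ := y1 - z with hn
    have hn1 : ‖n‖ = 1 := by rw [hn, ← dist_eq_norm]; exact hy1
    have hnn : dt360 n (z - y0) ≠ 0 := by
      intro h0
      have hz1 : (z - y0).re ^ 2 + (z - y0).im ^ 2 = 1 := by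
        have h3 : ‖z - y0‖ ^ 2 = 1 := by rw [← dist_eq_norm, dist_comm, hy0]; norm_num
        rw [Complex.sq_norm, Complex.normSq_apply] at h3
        linarith
      have ha : n.re ^ 2 + n.im ^ 2 = 1 := by
        have h3 : ‖n‖ ^ 2 = 1 := by rw [hn1]; norm_num
        rw [Complex.sq_norm, Complex.normSq_apply] at h3
        linarith
      have e1 : dt360 (Complex.I * n) (z - y0) = -n.im * (z - y0).re + n.re * (z - y0).im := by
        simp [dt360]
      rw [e1] at hd
      rw [dt360] at h0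
      have : (n.re ^ 2 + n.im ^ 2) * ((z - y0).re ^ 2 + (z - y0).im ^ 2) = 0 := by
        have e2 : (n.re ^ 2 + n.im ^ 2) * ((z - y0).re ^ 2 + (z - y0).im ^ 2) =
          (n.re * (z - y0).re + n.im * (z - y0).im) ^ 2 +
            (-n.im * (z - y0).re + n.re * (z - y0).im) ^ 2 := by ring
        rw [e2, h0, hd]; ring
      rw [ha, hz1] at this
      norm_num at this
    let r : ℝ → ℂ := fun s => n * ((Real.cos s : ℝ) + (Real.sin s : ℝ) * Complex.I)
    have hr : Continuous r := by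
      simp only [r]
      fun_prop
    have hrn : ∀ s, ‖r s‖ = 1 := by
      intro s
      simp only [r]
      rw [norm_mul, hn1, one_mul, Complex.norm_add_mul_I, Real.cos_sq_add_sin_sq, Real.sqrt_one]
    have hr0 : r 0 = n := by simp [r]
    have t1 : Tendsto (fun s => z + r s) (𝓝[≠] 0) (𝓝[sphere z 1] y1) := by
      refine tendsto_nhdsWithin_iff.2 ⟨?_, Eventually.of_forall fun s => ?_⟩
      · have hc : Continuous fun s => z + r s := continuous_const.add hr
        have h1 := (hc.tendsto 0).mono_left (nhdsWithin_le_nhds (s := {(0 : ℝ)}ᶜ))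
        have e : z + r 0 = y1 := by rw [hr0, hn]; ring
        rwa [e] at h1
      · rw [mem_sphere, dist_eq_norm, add_sub_cancel_left]; exact hrn s
    have t2 : Tendsto (fun s => z - r s) (𝓝[≠] 0) (𝓝[sphere z 1] y2) := by
      refine tendsto_nhdsWithin_iff.2 ⟨?_, Eventually.of_forall fun s => ?_⟩
      · have hc : Continuous fun s => z - r s := continuous_const.sub hr
        have h1 := (hc.tendsto 0).mono_left (nhdsWithin_le_nhds (s := {(0 : ℝ)}ᶜ))
        have e : z - r 0 = y2 := by rw [hr0, hn]; linear_combination -hy2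
        rwa [e] at h1
      · rw [mem_sphere, dist_eq_norm]
        have e : z - r s - z = -r s := by ring
        rw [e, norm_neg]; exact hrn s
    have hsin : ∀ᶠ s : ℝ in 𝓝[≠] 0, Real.sin s ≠ 0 := by
      have h1 : ∀ᶠ s : ℝ in 𝓝[≠] 0, s ∈ Ioo (-Real.pi) Real.pi :=
        mem_nhdsWithin_of_mem_nhds (Ioo_mem_nhds (by linarith [Real.pi_pos]) Real.pi_pos)
      filter_upwards [h1, self_mem_nhdsWithin] with s hs hs0 hsin
      exact hs0 ((Real.sin_eq_zero_iff_of_lt_of_lt hs.1 hs.2).1 hsin)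
    obtain ⟨s, hs1, hs2, hs3⟩ := ((t1.eventually (eventually_eventually_nhdsWithin.2 hJ1)).and
      ((t2.eventually (eventually_eventually_nhdsWithin.2 hJ2)).and hsin)).exists
    have h5 := h.line_sub (y1 := z + r s) (y2 := z - r s)
      (by rw [dist_eq_norm, add_sub_cancel_left]; exact hrn s) (by ring) hs1 hs2 hK
    rw [add_sub_cancel_left] at h5
    refine ⟨r s, hrn s, ?_, h5⟩
    simp only [r]
    rw [dt360_rot, hd, mul_zero, zero_sub]
    exact neg_ne_zero.2 (mul_ne_zero hs3 hnn)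
  · exact ⟨y1 - z, by rw [← dist_eq_norm]; exact hy1, hd, h.line_sub hy1 hy2 hJ1 hJ2 hK⟩

/-- a boundary point of the set of the `x`-partners on `S(z)` -/
theorem exists_bd {z : ℂ} {x : Fin k} (h1 : ∃ p, dist p z = 1 ∧ x ∈ Pal U p)
    (h2 : ∃ p, dist p z = 1 ∧ x ∉ Pal U p) :
    ∃ p, dist p z = 1 ∧ x ∈ Pal U p ∧ ∃ᶠ q in 𝓝[sphere z 1] p, x ∉ Pal U q := by
  obtain ⟨a, ha, hax⟩ := h1
  obtain ⟨b, hb, hbx⟩ := h2
  by_contra hcon
  push Not at hcon
  have hS : IsPreconnected (sphere z (1 : ℝ)) :=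
    isPreconnected_sphere (by rw [Complex.rank_real_complex]; exact Cardinal.one_lt_two) z 1
  have key : ∀ p ∈ sphere z (1 : ℝ), ∀ᶠ q in 𝓝[sphere z 1] p, (x ∈ Pal U p ↔ x ∈ Pal U q) := by
    intro p hp
    by_cases hx : x ∈ Pal U p
    · have h3 := hcon p hp hx
      filter_upwards [h3] with q hq
      exact ⟨fun _ => by simpa using hq, fun _ => hx⟩
    · have h4 : ∀ᶠ q in 𝓝 p, x ∉ Pal U q := isClosed_closure.isOpen_compl.mem_nhds hx
      filter_upwards [mem_nhdsWithin_of_mem_nhds h4] with q hq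
      exact ⟨fun h5 => absurd h5 hx, fun h5 => absurd h5 hq⟩
  have h5 : (x ∈ Pal U a ↔ x ∈ Pal U b) :=
    hS.induction₂ (fun p q => (x ∈ Pal U p ↔ x ∈ Pal U q)) key
      (fun _ _ _ _ _ _ h6 h7 => h6.trans h7) (fun _ _ _ _ h6 => h6.symm) ha hb
  exact hbx (h5.1 hax)

/-- **Rule (N) for a colour in no letter.** -/
theorem Irr.exists_N (h : Irr U T) {z : ℂ} {x : Fin k} (hx : x ∈ T z)
    (h1 : ∃ p, dist p z = 1 ∧ x ∈ Pal U p) (h2 : ∃ p, dist p z = 1 ∧ x ∉ Pal U p)
    (h3 : ∀ q, dist q z = 1 → x ∈ T q → (T q).ncard = 3) : ∃ i, i ≠ x ∧ ¬ Fill U T z x i := by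
  have hgz : x ∈ Pal U z := h.sub z hx
  obtain ⟨p, hp, hpx, hfr⟩ := exists_bd h1 h2
  by_cases hg : ∃ i, i ≠ x ∧ ∃ᶠ u in 𝓝 p, u ∈ U x ∧ u ∈ U i
  · obtain ⟨i, hi, hui⟩ := hg
    refine ⟨i, hi, ?_⟩
    rintro ⟨y1, y2, P1, P2, hy1, hy2, hJ1, hJ2, hK⟩
    exact h.no_fill hgz hp hui hy1 hy2 hJ1 hJ2 hK
  -- all points of `U x` near `p` are pure
  have hpure : ∀ᶠ u in 𝓝 p, u ∈ U x → T u ⊆ {x} := by
    have h4 : ∀ i : Fin k, ∀ᶠ u in 𝓝 p, i ≠ x → ¬ (u ∈ U x ∧ u ∈ U i) := by
      intro i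
      by_cases hi : i = x
      · exact Eventually.of_forall fun u h5 => absurd hi h5
      · have : ¬ ∃ᶠ u in 𝓝 p, u ∈ U x ∧ u ∈ U i := fun h5 => hg ⟨i, hi, h5⟩
        exact (not_frequently.1 this).mono fun u hu _ => hu
    filter_upwards [eventually_all.2 h4] with u hu hux i hi
    by_contra hix
    exact hu i hix ⟨hux, h.off u (fun hX => hX x hux) i hi⟩
  have hfx : ∃ᶠ u in 𝓝 p, u ∈ U x := mem_closure_iff_frequently.1 hpx
  have hxp : x ∈ T p := by
    have h5 : p ∈ closure {u | x ∈ T u} := by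
      rw [mem_closure_iff_frequently]
      refine (hfx.and_eventually hpure).mono ?_
      rintro u ⟨hu1, hu2⟩
      obtain ⟨i, hi⟩ := h.ne u
      have : i = x := hu2 hu1 hi
      exact this ▸ hi
    rwa [(h.closed x).closure_eq] at h5
  -- the two other colours
  have hc3 := h3 p hp hxp
  obtain ⟨a, b, hab, hTab⟩ : ∃ a b, a ≠ b ∧ T p \ {x} = {a, b} := by
    rw [← Set.ncard_eq_two, Set.ncard_sdiff_singleton_of_mem hxp, hc3]
  have ha : a ∈ T p \ {x} := hTab ▸ Or.inl rfl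
  have hb : b ∈ T p \ {x} := hTab ▸ Or.inr rfl
  by_contra hcon
  push Not at hcon
  obtain ⟨na, hna, hda, hla⟩ := h.fill_line hp (hcon a ha.2)
  obtain ⟨nb, hnb, hdb, hlb⟩ := h.fill_line hp (hcon b hb.2)
  -- no point near `p` has the palette `{x, b}`
  have hnob : ∀ᶠ w in 𝓝 p, T w ≠ {x, b} := by
    obtain ⟨δ, hδ, hball⟩ := Metric.eventually_nhds_iff.1 hlb
    filter_upwards [meets_line hp hdb hδ] with w hw hTw
    have hxb : x ≠ b := fun h5 => hb.2 h5.symm
    have hwz : dist z w ≠ 1 := by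
      intro h5
      have h6 := h3 w (by rw [dist_comm]; exact h5) (by rw [hTw]; exact Or.inl rfl)
      rw [hTw, Set.ncard_pair hxb] at h6
      omega
    obtain ⟨t, ht, ht0, htw⟩ := hw hwz
    have h6 := hball (by rw [Real.dist_eq, sub_zero]; exact ht) ht0
    exact h.not_sub htw (by rw [hTw, Set.ncard_pair hxb]; omega) (hTw ▸ h6)
  obtain ⟨ρ, hρ, hρb⟩ := Metric.eventually_nhds_iff.1 (hnob.and ((h.nhd p).and hpure))
  -- a point of `S(z)` near `p` without `x`
  have hpz : Continuous fun s : ℝ => z + (p - z) * cis s :=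
    continuous_const.add (continuous_const.mul continuous_cis)
  have hp0 : z + (p - z) * cis 0 = p := by rw [cis_zero394]; ring
  obtain ⟨η, hη, hηb⟩ := Metric.eventually_nhds_iff.1
    ((hpz.tendsto 0).eventually (by
      rw [hp0]; exact Metric.ball_mem_nhds p (show 0 < ρ / 2 by linarith)))
  have hfr2 : ∃ᶠ t : ℝ in 𝓝 0, x ∉ Pal U (z + (p - z) * cis t) := by
    intro h5
    refine hfr ?_
    rw [eventually_circle hp]
    exact h5
  obtain ⟨σ, hσx, hσ⟩ := (hfr2.and_eventually (Metric.ball_mem_nhds (0 : ℝ) hη)).exists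
  have hσ : dist σ 0 < η := hσ
  set q0 := z + (p - z) * cis σ with hq0
  obtain ⟨ρ', hρ', hρb'⟩ := Metric.isOpen_iff.1 (isClosed_closure.isOpen_compl (s := closure (U x)))
    q0 hσx
  -- the small number
  obtain ⟨δ, hδ, hball⟩ := Metric.eventually_nhds_iff.1 hla
  set δ' := min δ (min (ρ / 8) (ρ' / 8)) with hδ'
  have hδ0 : 0 < δ' := lt_min hδ (lt_min (by linarith) (by linarith))
  have hnear : ∀ᶠ u in 𝓝 p, u ∈ ball p δ' := Metric.ball_mem_nhds p hδ0
  obtain ⟨u, hux, huball, hu⟩ := (hfx.and_eventually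
    (hnear.and (meets_line hp hda hδ0))).exists
  have huball : dist u p < δ' := huball
  have hzu : dist z u ≠ 1 := fun h5 => h.mx.notMem' hux (by rw [dist_comm]; exact h5) hgz
  obtain ⟨t, ht, ht0, htu⟩ := hu hzu
  set w := z + t * (Complex.I * na) with hw
  have hwz : dist w z < δ' := by
    rw [hw, dist_eq_norm, add_sub_cancel_left, norm_mul, norm_mul, Complex.norm_I, hna,
      Complex.norm_real, one_mul, mul_one]
    exact ht
  have hTw : T w ⊆ {x, a} := hball (by
    rw [Real.dist_eq, sub_zero]; exact lt_of_lt_of_le ht (min_le_left _ _)) ht0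
  have hwx : x ∉ Pal U w := h.mx.notMem' hux (by rw [dist_comm]; exact htu)
  have hwa : w ∈ U a := by
    refine h.mem_of_single fun j hj => ?_
    rcases hTw hj with h5 | h5
    · exact absurd (h.sub w (h5 ▸ hj)) hwx
    · exact h5
  -- the arc of `S(w)` from `u`
  set c : ℝ → ℂ := fun s => w + (u - w) * cis s with hc
  have hcc : Continuous c := continuous_const.add (continuous_const.mul continuous_cis)
  have hcw : ∀ s, dist w (c s) = 1 := by
    intro s
    rw [dist_comm, dist_eq_norm, hc]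
    simp only [add_sub_cancel_left]
    rw [norm_mul, norm_cis, mul_one, ← dist_eq_norm, dist_comm]
    exact htu
  have hclose : ∀ s, dist (c s) (z + (p - z) * cis s) < 3 * δ' := by
    intro s
    have e : c s - (z + (p - z) * cis s) = (w - z) * (1 - cis s) + (u - p) * cis s := by
      rw [hc]; ring
    rw [dist_eq_norm, e]
    have n1 : ‖(w - z) * (1 - cis s)‖ ≤ ‖w - z‖ * 2 := by
      rw [norm_mul]
      refine mul_le_mul_of_nonneg_left ?_ (norm_nonneg _)
      calc ‖1 - cis s‖ ≤ ‖(1 : ℂ)‖ + ‖cis s‖ := norm_sub_le _ _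
        _ = 2 := by rw [norm_cis, norm_one]; norm_num
    have n2 : ‖(u - p) * cis s‖ = ‖u - p‖ := by rw [norm_mul, norm_cis, mul_one]
    have n3 : ‖w - z‖ < δ' := by rw [← dist_eq_norm]; exact hwz
    have n4 : ‖u - p‖ < δ' := by rw [← dist_eq_norm]; exact huball
    calc _ ≤ ‖(w - z) * (1 - cis s)‖ + ‖(u - p) * cis s‖ := norm_add_le _ _
      _ < 3 * δ' := by rw [n2]; linarith
  have hδρ : δ' ≤ ρ / 8 := (min_le_right _ _).trans (min_le_left _ _)
  have hδρ' : δ' ≤ ρ' / 8 := (min_le_right _ _).trans (min_le_right _ _)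
  have hcin : ∀ s, |s| ≤ |σ| → dist (c s) p < ρ := by
    intro s hs
    have h5 : dist (z + (p - z) * cis s) p < ρ / 2 := hηb (by
      rw [Real.dist_eq, sub_zero] at hσ ⊢
      exact lt_of_le_of_lt hs hσ)
    have := dist_triangle (c s) (z + (p - z) * cis s) p
    linarith [hclose s]
  have hcab : ∀ s, |s| ≤ |σ| → T (c s) ⊆ {x, b} := by
    intro s hs i hi
    obtain ⟨-, h6, -⟩ := hρb (hcin s hs)
    have h7 := h6 hi
    by_cases hix : i = x
    · exact Or.inl hix
    have h8 : i ∈ T p \ {x} := ⟨h7, hix⟩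
    rw [hTab] at h8
    rcases h8 with h9 | h9
    · exact absurd (h.sub _ (h9 ▸ hi)) (h.mx.notMem' hwa (hcw s))
    · exact Or.inr h9
  -- connectedness
  have hI : IsPreconnected (uIcc 0 σ) := isPreconnected_uIcc
  have hcl : ∀ i, IsClosed {s : ℝ | i ∈ T (c s)} := fun i => (h.closed i).preimage hcc
  have habs : ∀ s ∈ uIcc 0 σ, |s| ≤ |σ| := by
    intro s hs
    rcases mem_uIcc.1 hs with ⟨h5, h6⟩ | ⟨h5, h6⟩
    · rw [abs_of_nonneg h5, abs_of_nonneg (h5.trans h6)]; exact h6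
    · rw [abs_of_nonpos h6, abs_of_nonpos (h5.trans h6)]; linarith
  have hu0 : c 0 = u := by rw [hc]; simp only [cis_zero394]; ring
  obtain ⟨s, hs, hs1, hs2⟩ := (isPreconnected_closed_iff.1 hI) {s | x ∈ T (c s)} {s | b ∈ T (c s)}
    (hcl x) (hcl b) (by
      intro s hs
      obtain ⟨i, hi⟩ := h.ne (c s)
      rcases hcab s (habs s hs) hi with h5 | h5
      · exact Or.inl (show x ∈ T (c s) from h5 ▸ hi)
      · exact Or.inr (show b ∈ T (c s) from h5 ▸ hi))
    ⟨0, left_mem_uIcc, by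
      show x ∈ T (c 0)
      rw [hu0]
      obtain ⟨i, hi⟩ := h.ne u
      have h5 := (hρb (show dist u p < ρ by linarith)).2.2 hux hi
      exact (show i = x from h5) ▸ hi⟩
    ⟨σ, right_mem_uIcc, by
      show b ∈ T (c σ)
      obtain ⟨i, hi⟩ := h.ne (c σ)
      rcases hcab σ le_rfl hi with h5 | h5
      · exfalso
        have h6 : c σ ∈ ball q0 ρ' := by
          rw [mem_ball, hq0]
          linarith [hclose σ]
        exact hρb' h6 (h.sub _ (h5 ▸ hi))
      · exact h5 ▸ hi⟩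
  refine (hρb (hcin s (habs s hs))).1 (subset_antisymm (hcab s (habs s hs)) ?_)
  rintro i (h5 | h5)
  · exact h5 ▸ hs1
  · exact h5 ▸ hs2

end Vale.Agent.P032.Six
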